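import Mathlib
import Vale.Agent.P184.Statement
import Vale.Agent.P184.Final

namespace Vale.Agent.Results.P184.CAT0

open Vale.Agent.P184

universe u v

theorem result :
    (∀ (G : Type u) [Group G] (X : Type v) [PseudoMetricSpace X] [MulAction G X]
      [IsIsometricSMul G X],
      (∀ x y p q : X, dist x q ^ 2 + dist y p ^ 2 ≤
        dist x y ^ 2 + dist y q ^ 2 + dist q p ^ 2 + dist p x ^ 2) →
      ∀ (o : X) (g : G) (c : ℝ), 0 < c → (∀ n : ℕ, c * n ≤ dist o (g ^ n • o)) →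
      TraceVanishesAt g) ∧
    (∀ (G : Type u) [Group G] (X : Type v) [MetricSpace X] [MulAction G X] [IsIsometricSMul G X],
      IsCAT0 X → ∀ (o : X) (g : G) (c : ℝ), 0 < c → (∀ n : ℕ, c * n ≤ dist o (g ^ n • o)) →
      TraceVanishesAt g) ∧
    (∀ (G : Type u) [Group G] (X : Type v) [MetricSpace X] [MulAction G X] [IsIsometricSMul G X],
      IsCAT0 X →
      (∀ g : G, ¬ IsOfFinOrder g → ∃ (o : X) (c : ℝ), 0 < c ∧
        ∀ n : ℕ, c * n ≤ dist o (g ^ n • o)) →
      {C : ConjClasses G | ∃ g ∈ C.carrier, IsOfFinOrder g}.Finite → L1Bass G) :=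
  ⟨fun G _ X _ _ _ hX o g c hc hg => final_round G X hX o g c hc hg,
   fun G _ X _ _ _ hX o g c hc hg => final_CAT0 G X hX o g c hc hg,
   fun G _ X _ _ _ hX hg hfin => final_CAT0_full G X hX hg hfin⟩

end Vale.Agent.Results.P184.CAT0
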