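import Mathlib
import Vale.Agent.P184.Statement
import Vale.Agent.P184.Final

namespace Vale.Agent.Results.P184.Linear

open Vale.Agent.P184

universe u v

theorem result :
    (∀ (G : Type u) [Group G] (K : Type v) [Field K] (n : ℕ) (ρ : G →* GL (Fin n) K) (g : G),
      (∀ m : ℕ, 0 < m → ¬ IsNilpotent ((ρ g : Matrix (Fin n) (Fin n) K) ^ m - 1)) →
      TraceVanishesAt g) ∧
    (∀ (G : Type u) [Group G] (K : Type v) [Field K] (p : ℕ) [Fact p.Prime] [CharP K p] (n : ℕ)
      (ρ : G →* GL (Fin n) K), Function.Injective ρ →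
      (∀ g : G, ¬ IsOfFinOrder g → TraceVanishesAt g) ∧
      ({C : ConjClasses G | ∃ g ∈ C.carrier, IsOfFinOrder g}.Finite → L1Bass G)) :=
  ⟨fun G _ K _ n ρ g hg => final_linear G K n ρ g hg,
   fun G _ K _ p _ _ n ρ hρ =>
     ⟨fun g hg => final_charP G K p n ρ hρ g hg, fun hfin => final_charP_full G K p n ρ hρ hfin⟩⟩

end Vale.Agent.Results.P184.Linear
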