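import Mathlib
import Vale.Agent.P184.Statement
import Vale.Agent.P184.AmenDefs
import Vale.Agent.P184.PLDefs
import Vale.Agent.P184.Final

namespace Vale.Agent.Results.P184.Main

open Vale.Agent.P184

universe u v

theorem result :
    -- (1) the local and the global criterion
    (∀ (G : Type u) [Group G] (g : G),
      (∀ H : Subgroup G, H.FG → ∀ h : H, IsConj g (h : G) → HasDominatedCharacter h) →
      TraceVanishesAt g) ∧
    (∀ (G : Type u) [Group G] (g : G), HasDominatedCharacter g → TraceVanishesAt g) ∧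
    (∀ (G : Type u) [Group G],
      (∀ g : G, ¬ IsOfFinOrder g → HasDominatedCharacter g) →
      {C : ConjClasses G | ∃ g ∈ C.carrier, IsOfFinOrder g}.Finite → L1Bass G) ∧
    -- (2) linear groups over arbitrary fields, and in positive characteristic
    (∀ (G : Type u) [Group G] (K : Type v) [Field K] (n : ℕ) (ρ : G →* GL (Fin n) K) (g : G),
      (∀ m : ℕ, 0 < m → ¬ IsNilpotent ((ρ g : Matrix (Fin n) (Fin n) K) ^ m - 1)) →
      TraceVanishesAt g) ∧
    (∀ (G : Type u) [Group G] (K : Type v) [Field K] (p : ℕ) [Fact p.Prime] [CharP K p] (n : ℕ)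
      (ρ : G →* GL (Fin n) K), Function.Injective ρ →
      (∀ g : G, ¬ IsOfFinOrder g → TraceVanishesAt g) ∧
      ({C : ConjClasses G | ∃ g ∈ C.carrier, IsOfFinOrder g}.Finite → L1Bass G)) ∧
    -- (3) groups of piecewise linear homeomorphisms of the line with support bounded below
    (∀ (G : Type u) [Group G] (φ : G →* (ℝ ≃o ℝ)), Function.Injective φ →
      (∀ x : G, IsPL (φ x)) → (∀ x : G, ∃ M : ℝ, ∀ t ≤ M, φ x t = t) → L1Bass G) ∧
    -- (4) isometric actions on CAT(0) spaces
    (∀ (G : Type u) [Group G] (X : Type v) [MetricSpace X] [MulAction G X] [IsIsometricSMul G X],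
      IsCAT0 X → ∀ (o : X) (g : G) (c : ℝ), 0 < c → (∀ n : ℕ, c * n ≤ dist o (g ^ n • o)) →
      TraceVanishesAt g) ∧
    (∀ (G : Type u) [Group G] (X : Type v) [MetricSpace X] [MulAction G X] [IsIsometricSMul G X],
      IsCAT0 X →
      (∀ g : G, ¬ IsOfFinOrder g → ∃ (o : X) (c : ℝ), 0 < c ∧
        ∀ n : ℕ, c * n ≤ dist o (g ^ n • o)) →
      {C : ConjClasses G | ∃ g ∈ C.carrier, IsOfFinOrder g}.Finite → L1Bass G) ∧
    -- (5) amenable centralizer and positive stable length
    (∀ (G : Type u) [Group G] (g : G) (L : G → ℝ), (∀ x y, L (x * y) ≤ L x + L y) →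
      ∀ c : ℝ, 0 < c → (∀ n : ℕ, c * n ≤ L (g ^ n)) →
      Amenable (Subgroup.centralizer ({g} : Set G)) → TraceVanishesAt g) :=
  ⟨fun G _ g h => final_local G g h,
   fun G _ g h => final_global G g h,
   fun G _ h hfin => final_full G h hfin,
   fun G _ K _ n ρ g hg => final_linear G K n ρ g hg,
   fun G _ K _ p _ _ n ρ hρ =>
     ⟨fun g hg => final_charP G K p n ρ hρ g hg, fun hfin => final_charP_full G K p n ρ hρ hfin⟩,
   fun G _ φ hφ hPL hs =>
     L1Bass.of_torsionFree (PL_torsionFree φ hφ hPL hs) (PL_vanishes φ hφ hPL hs),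
   fun G _ X _ _ _ hX o g c hc hg => final_CAT0 G X hX o g c hc hg,
   fun G _ X _ _ _ hX hg hfin => final_CAT0_full G X hX hg hfin,
   fun G _ g L hL c hc hg ham => final_amenable G g L hL c hc hg ham⟩

end Vale.Agent.Results.P184.Main
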