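import Mathlib
import Vale.Agent.P184.Statement
import Vale.Agent.P184.PLDefs
import Vale.Agent.P184.Final

namespace Vale.Agent.Results.P184.PLGroups

open Vale.Agent.P184

universe u

theorem result (G : Type u) [Group G] (φ : G →* (ℝ ≃o ℝ)) (hφ : Function.Injective φ)
    (hPL : ∀ x : G, IsPL (φ x)) (hs : ∀ x : G, ∃ M : ℝ, ∀ t ≤ M, φ x t = t) : L1Bass G :=
  L1Bass.of_torsionFree (PL_torsionFree φ hφ hPL hs) (PL_vanishes φ hφ hPL hs)

end Vale.Agent.Results.P184.PLGroups
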